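import Mathlib

/-!
Auxiliary results for problem P100 (Hénon-Lane-Emden system): a pointwise chain rule for the
Laplacian, Laplacians of radial functions, the interior-minimum test and a minimum principle on
annuli. Everything is stated on a finite-dimensional real inner product space `E`.
-/

open InnerProductSpace Laplacian Topology Filter

namespace Vale.Agent.Lib.P100

variable {E : Type*} [NormedAddCommGroup E] [InnerProductSpace ℝ E] [FiniteDimensional ℝ E]

omit [FiniteDimensional ℝ E] in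
/-- Second derivative of a composition `h ∘ W` at a point, as a bilinear form. -/
lemma fderiv_fderiv_comp_at (h : ℝ → ℝ) (W : E → ℝ) (x : E)
    (hh : ContDiffAt ℝ 2 h (W x)) (hW : ContDiffAt ℝ 2 W x) (a b : E) :
    fderiv ℝ (fderiv ℝ (fun z => h (W z))) x a b
      = deriv (deriv h) (W x) * (fderiv ℝ W x a * fderiv ℝ W x b)
        + deriv h (W x) * fderiv ℝ (fderiv ℝ W) x a b := by
  have hWev : ∀ᶠ z in 𝓝 x, DifferentiableAt ℝ W z := by
    filter_upwards [hW.eventually (by simp)] with z hz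
    exact hz.differentiableAt (by norm_num)
  have hhev : ∀ᶠ t in 𝓝 (W x), DifferentiableAt ℝ h t := by
    filter_upwards [hh.eventually (by simp)] with t ht
    exact ht.differentiableAt (by norm_num)
  have hWc : ContinuousAt W x := hW.continuousAt
  have hhev' : ∀ᶠ z in 𝓝 x, DifferentiableAt ℝ h (W z) := hWc.eventually hhev
  have h1 : fderiv ℝ (fun z => h (W z)) =ᶠ[𝓝 x] fun z => deriv h (W z) • fderiv ℝ W z := by
    filter_upwards [hWev, hhev'] with z hz1 hz2
    exact (hz2.hasDerivAt.comp_hasFDerivAt z hz1.hasFDerivAt).fderiv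
  rw [h1.fderiv_eq]
  have hdh : DifferentiableAt ℝ (deriv h) (W x) := by
    have h1 : DifferentiableAt ℝ (fderiv ℝ h) (W x) :=
      (hh.fderiv_right (m := 1) (by norm_num)).differentiableAt (by norm_num)
    have h2 : deriv h = fun t => fderiv ℝ h t 1 := by
      funext t; simp
    rw [h2]
    exact h1.clm_apply (differentiableAt_const _)
  have hdW : DifferentiableAt ℝ (fderiv ℝ W) x :=
    (hW.fderiv_right (m := 1) (by norm_num)).differentiableAt (by norm_num)
  have h2 : HasFDerivAt (fun z => deriv h (W z) • fderiv ℝ W z)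
      (deriv h (W x) • fderiv ℝ (fderiv ℝ W) x
        + (deriv (deriv h) (W x) • fderiv ℝ W x).smulRight (fderiv ℝ W x)) x := by
    have hc : HasFDerivAt (fun z => deriv h (W z)) (deriv (deriv h) (W x) • fderiv ℝ W x) x :=
      hdh.hasDerivAt.comp_hasFDerivAt x (hW.differentiableAt (by norm_num)).hasFDerivAt
    exact hc.smul hdW.hasFDerivAt
  rw [h2.fderiv]
  simp
  ring

/-- Chain rule for the Laplacian of `h ∘ W` at a point. -/
lemma laplacian_comp_at (h : ℝ → ℝ) (W : E → ℝ) (x : E)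
    (hh : ContDiffAt ℝ 2 h (W x)) (hW : ContDiffAt ℝ 2 W x) :
    Δ (fun z => h (W z)) x
      = deriv (deriv h) (W x) * ‖fderiv ℝ W x‖ ^ 2 + deriv h (W x) * Δ W x := by
  simp only [laplacian_eq_iteratedFDeriv_stdOrthonormalBasis, iteratedFDeriv_two_apply]
  rw [OrthonormalBasis.norm_dual (stdOrthonormalBasis ℝ E)]
  simp only [Matrix.cons_val_zero, Matrix.cons_val_one, fderiv_fderiv_comp_at h W x hh hW]
  rw [Finset.sum_add_distrib, Finset.mul_sum, Finset.mul_sum]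
  congr 1
  refine Finset.sum_congr rfl (fun i _ => ?_)
  ring


/-! ### The squared norm -/

omit [FiniteDimensional ℝ E] in
lemma contDiff_normSq : ContDiff ℝ 2 (fun x : E => ‖x‖ ^ 2) := contDiff_norm_sq ℝ

omit [FiniteDimensional ℝ E] in
lemma fderiv_normSq : fderiv ℝ (fun x : E => ‖x‖ ^ 2) = fun x => 2 • innerSL ℝ x := by
  funext x
  exact (hasStrictFDerivAt_norm_sq x).hasFDerivAt.fderiv

omit [FiniteDimensional ℝ E] in
lemma norm_fderiv_normSq (x : E) : ‖fderiv ℝ (fun x : E => ‖x‖ ^ 2) x‖ = 2 * ‖x‖ := by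
  rw [fderiv_normSq]
  have h : (2 : ℕ) • innerSL ℝ x = (2 : ℝ) • innerSL ℝ x := by simp [two_smul]
  show ‖(2 : ℕ) • innerSL ℝ x‖ = 2 * ‖x‖
  rw [h, norm_smul, innerSL_apply_norm]
  simp

lemma laplacian_normSq (x : E) :
    Δ (fun x : E => ‖x‖ ^ 2) x = 2 * (Module.finrank ℝ E : ℝ) := by
  simp only [laplacian_eq_iteratedFDeriv_stdOrthonormalBasis, iteratedFDeriv_two_apply]
  rw [fderiv_normSq]
  have h1 : (fun x : E => (2 : ℕ) • innerSL ℝ x) = fun x => ((2 : ℝ) • innerSL ℝ) x := by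
    funext x
    simp [two_smul]
  rw [h1]
  have h2 : ∀ y : E, fderiv ℝ (fun x => ((2 : ℝ) • innerSL ℝ) x) y = (2 : ℝ) • innerSL ℝ :=
    fun y => ((2 : ℝ) • innerSL ℝ : E →L[ℝ] E →L[ℝ] ℝ).fderiv
  simp only [h2]
  have h3 : ∀ i, ((2 : ℝ) • innerSL ℝ) (stdOrthonormalBasis ℝ E i)
      (stdOrthonormalBasis ℝ E i) = 2 := by
    intro i
    simp
  simp only [Matrix.cons_val_zero, Matrix.cons_val_one, h3]
  simp [mul_comm]


/-- Laplacian of a radial function `z ↦ h (‖z‖ ^ 2)`. -/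
lemma laplacian_radial (h : ℝ → ℝ) (x : E) (hh : ContDiffAt ℝ 2 h (‖x‖ ^ 2)) :
    Δ (fun z : E => h (‖z‖ ^ 2)) x
      = 4 * ‖x‖ ^ 2 * deriv (deriv h) (‖x‖ ^ 2)
        + 2 * (Module.finrank ℝ E : ℝ) * deriv h (‖x‖ ^ 2) := by
  rw [laplacian_comp_at h (fun z : E => ‖z‖ ^ 2) x hh contDiff_normSq.contDiffAt,
    norm_fderiv_normSq, laplacian_normSq]
  ring

omit [FiniteDimensional ℝ E] in
/-- The function `z ↦ log (‖z‖ ^ 2)` is `C^2` away from the origin. -/
lemma contDiffAt_logNormSq {x : E} (hx : x ≠ 0) :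
    ContDiffAt ℝ 2 (fun z : E => Real.log (‖z‖ ^ 2)) x := by
  have h0 : ‖x‖ ^ 2 ≠ 0 := by positivity
  exact (Real.contDiffAt_log.2 h0).comp x contDiff_normSq.contDiffAt

/-- Laplacian of `z ↦ log (‖z‖ ^ 2)`. -/
lemma laplacian_logNormSq {x : E} (hx : x ≠ 0) :
    Δ (fun z : E => Real.log (‖z‖ ^ 2)) x
      = (2 * (Module.finrank ℝ E : ℝ) - 4) / ‖x‖ ^ 2 := by
  have h0 : ‖x‖ ^ 2 ≠ 0 := by positivity
  rw [laplacian_radial Real.log x (Real.contDiffAt_log.2 h0)]
  rw [Real.deriv_log']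
  have h1 : deriv (Inv.inv : ℝ → ℝ) (‖x‖ ^ 2) = -((‖x‖ ^ 2) ^ 2)⁻¹ := deriv_inv
  rw [h1]
  field_simp
  ring

omit [FiniteDimensional ℝ E] in
/-- The function `z ↦ (log (‖z‖ ^ 2)) ^ 2` is `C^2` away from the origin. -/
lemma contDiffAt_logNormSq_sq {x : E} (hx : x ≠ 0) :
    ContDiffAt ℝ 2 (fun z : E => Real.log (‖z‖ ^ 2) ^ 2) x :=
  (contDiffAt_logNormSq hx).pow 2

/-- Laplacian of `z ↦ (log (‖z‖ ^ 2)) ^ 2`. -/
lemma laplacian_logNormSq_sq {x : E} (hx : x ≠ 0) :
    Δ (fun z : E => Real.log (‖z‖ ^ 2) ^ 2) x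
      = (8 + (4 * (Module.finrank ℝ E : ℝ) - 8) * Real.log (‖x‖ ^ 2)) / ‖x‖ ^ 2 := by
  have h0 : ‖x‖ ^ 2 ≠ 0 := by positivity
  have hpos : 0 < ‖x‖ ^ 2 := by positivity
  have hh : ContDiffAt ℝ 2 (fun t : ℝ => Real.log t ^ 2) (‖x‖ ^ 2) :=
    (Real.contDiffAt_log.2 h0).pow 2
  rw [laplacian_radial (fun t : ℝ => Real.log t ^ 2) x hh]
  have hd1 : ∀ t : ℝ, t ≠ 0 →
      HasDerivAt (fun t : ℝ => Real.log t ^ 2) (2 * Real.log t * t⁻¹) t := by
    intro t ht
    have := (Real.hasDerivAt_log ht).pow 2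
    exact this.congr_deriv (by ring)
  have hev : deriv (fun t : ℝ => Real.log t ^ 2) =ᶠ[𝓝 (‖x‖ ^ 2)]
      fun t => 2 * Real.log t * t⁻¹ := by
    filter_upwards [isOpen_ne.mem_nhds h0] with t ht
    exact (hd1 t ht).deriv
  have hd2 : HasDerivAt (fun t : ℝ => 2 * Real.log t * t⁻¹)
      (2 * (‖x‖ ^ 2)⁻¹ * (‖x‖ ^ 2)⁻¹ + 2 * Real.log (‖x‖ ^ 2) * (-((‖x‖ ^ 2) ^ 2)⁻¹))
      (‖x‖ ^ 2) := by
    have ha : HasDerivAt (fun t : ℝ => 2 * Real.log t) (2 * (‖x‖ ^ 2)⁻¹) (‖x‖ ^ 2) :=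
      (Real.hasDerivAt_log h0).const_mul 2
    exact ha.mul (hasDerivAt_inv h0)
  rw [hev.deriv_eq, hd2.deriv, (hd1 _ h0).deriv]
  field_simp
  ring

/-! ### The interior-minimum test -/

/-- One-dimensional second-order necessary condition at a local minimum. -/
lemma deriv2_nonneg_of_isLocalMin {g : ℝ → ℝ} (hc : ContinuousAt g 0)
    (hmin : IsLocalMin g 0) : 0 ≤ deriv (deriv g) 0 := by
  by_contra hneg
  have hneg' : deriv (deriv g) 0 < 0 := not_le.1 hneg
  have hd : deriv g 0 = 0 := hmin.deriv_eq_zero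
  have hmax : IsLocalMax g 0 := isLocalMax_of_deriv_deriv_neg hneg' hd hc
  have hconst : g =ᶠ[𝓝 0] fun _ => g 0 := by
    filter_upwards [hmin, hmax] with t h1 h2
    exact le_antisymm h2 h1
  have h1 : deriv g =ᶠ[𝓝 0] fun _ => (0 : ℝ) := by
    have := hconst.deriv
    simpa using this
  have h2 : deriv (deriv g) 0 = 0 := by
    rw [h1.deriv_eq]; simp
  linarith

omit [FiniteDimensional ℝ E] in
/-- Second directional derivative along a line through `x`. -/
lemma deriv2_line {w : E → ℝ} {x : E} (hw : ContDiffAt ℝ 2 w x) (e : E) :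
    deriv (deriv (fun t : ℝ => w (x + t • e))) 0 = fderiv ℝ (fderiv ℝ w) x e e := by
  have hline : ∀ t : ℝ, HasDerivAt (fun t : ℝ => x + t • e) e t := by
    intro t
    have := ((hasDerivAt_id t).smul_const e).const_add x
    simpa using this
  have hl0 : (fun t : ℝ => x + t • e) 0 = x := by simp
  have hlc : ContinuousAt (fun t : ℝ => x + t • e) 0 := (hline 0).continuousAt
  have hwev : ∀ᶠ z in 𝓝 x, DifferentiableAt ℝ w z := by
    filter_upwards [hw.eventually (by simp)] with z hz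
    exact hz.differentiableAt (by norm_num)
  have hwev' : ∀ᶠ t in 𝓝 (0 : ℝ), DifferentiableAt ℝ w (x + t • e) := by
    have h := hlc.eventually (hl0.symm ▸ hwev)
    exact h
  have h1 : deriv (fun t : ℝ => w (x + t • e)) =ᶠ[𝓝 0] fun t => fderiv ℝ w (x + t • e) e := by
    filter_upwards [hwev'] with t ht
    exact (ht.hasFDerivAt.comp_hasDerivAt t (hline t)).deriv
  rw [h1.deriv_eq]
  have hdw : DifferentiableAt ℝ (fderiv ℝ w) x :=
    (hw.fderiv_right (m := 1) (by norm_num)).differentiableAt (by norm_num)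
  have hdw' : HasFDerivAt (fderiv ℝ w) (fderiv ℝ (fderiv ℝ w) x) (x + (0 : ℝ) • e) := by
    simpa using hdw.hasFDerivAt
  have h2 : HasDerivAt (fun t : ℝ => fderiv ℝ w (x + t • e)) (fderiv ℝ (fderiv ℝ w) x e) 0 :=
    hdw'.comp_hasDerivAt 0 (hline 0)
  have h3 := h2.clm_apply (hasDerivAt_const (0 : ℝ) e)
  rw [h3.deriv]
  simp

/-- At an interior local minimum of a `C^2` function the Laplacian is nonnegative. -/
lemma laplacian_nonneg_of_isLocalMin {w : E → ℝ} {x : E} (hw : ContDiffAt ℝ 2 w x)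
    (hmin : IsLocalMin w x) : 0 ≤ Δ w x := by
  simp only [laplacian_eq_iteratedFDeriv_stdOrthonormalBasis, iteratedFDeriv_two_apply]
  refine Finset.sum_nonneg (fun i _ => ?_)
  simp only [Matrix.cons_val_zero, Matrix.cons_val_one]
  rw [← deriv2_line hw]
  have hlc : ContinuousAt (fun t : ℝ => x + t • (stdOrthonormalBasis ℝ E i)) 0 := by
    fun_prop
  have hl0 : (fun t : ℝ => x + t • (stdOrthonormalBasis ℝ E i)) 0 = x := by simp
  apply deriv2_nonneg_of_isLocalMin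
  · exact ContinuousAt.comp_of_eq hw.continuousAt hlc hl0
  · have hmin' : ∀ᶠ y in 𝓝 ((fun t : ℝ => x + t • (stdOrthonormalBasis ℝ E i)) 0),
        w x ≤ w y := by
      rw [hl0]; exact hmin
    have h := hlc.eventually hmin'
    have h' : (fun t : ℝ => w (x + t • (stdOrthonormalBasis ℝ E i))) 0 = w x := by simp
    show ∀ᶠ t in 𝓝 (0 : ℝ), (fun t : ℝ => w (x + t • (stdOrthonormalBasis ℝ E i))) 0
      ≤ (fun t : ℝ => w (x + t • (stdOrthonormalBasis ℝ E i))) t
    rw [h']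
    exact h

/-- Minimum principle on an annulus: a function that is continuous on the closed annulus,
`C^2` with negative Laplacian in the open annulus and nonnegative on both bounding spheres is
nonnegative on the closed annulus. -/
lemma annulus_nonneg {w : E → ℝ} {a b : ℝ}
    (hc : ContinuousOn w {x | a ≤ ‖x‖ ∧ ‖x‖ ≤ b})
    (h2 : ∀ x, a < ‖x‖ → ‖x‖ < b → ContDiffAt ℝ 2 w x)
    (hΔ : ∀ x, a < ‖x‖ → ‖x‖ < b → Δ w x < 0)
    (ha : ∀ x, ‖x‖ = a → 0 ≤ w x) (hb : ∀ x, ‖x‖ = b → 0 ≤ w x) :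
    ∀ x, a ≤ ‖x‖ → ‖x‖ ≤ b → 0 ≤ w x := by
  intro x hxa hxb
  have hK : IsCompact {x : E | a ≤ ‖x‖ ∧ ‖x‖ ≤ b} := by
    have h1 : {x : E | a ≤ ‖x‖ ∧ ‖x‖ ≤ b} = Metric.closedBall 0 b ∩ {x : E | a ≤ ‖x‖} := by
      ext z; simp [and_comm]
    rw [h1]
    exact (isCompact_closedBall 0 b).inter_right (isClosed_le continuous_const continuous_norm)
  obtain ⟨y, hyK, hy⟩ := hK.exists_isMinOn ⟨x, hxa, hxb⟩ hc
  have hle : w y ≤ w x := isMinOn_iff.1 hy x ⟨hxa, hxb⟩
  rcases eq_or_lt_of_le hyK.1 with h | h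
  · linarith [ha y h.symm]
  rcases eq_or_lt_of_le hyK.2 with h' | h'
  · linarith [hb y h']
  have hloc : IsLocalMin w y := by
    have hopen : {z : E | a < ‖z‖ ∧ ‖z‖ < b} ∈ 𝓝 y := by
      have ho : IsOpen {z : E | a < ‖z‖ ∧ ‖z‖ < b} :=
        (isOpen_lt continuous_const continuous_norm).inter
          (isOpen_lt continuous_norm continuous_const)
      exact ho.mem_nhds ⟨h, h'⟩
    filter_upwards [hopen] with z hz
    exact isMinOn_iff.1 hy z ⟨hz.1.le, hz.2.le⟩
  have := laplacian_nonneg_of_isLocalMin (h2 y h h') hloc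
  linarith [hΔ y h h']

/-- Laplacian of `u + c * f + c' * g + d` at a point where `u`, `f`, `g` are `C^2`. -/
lemma laplacian_lincomb (u f g : E → ℝ) (c c' d : ℝ) (x : E) (hu : ContDiffAt ℝ 2 u x)
    (hf : ContDiffAt ℝ 2 f x) (hg : ContDiffAt ℝ 2 g x) :
    Δ (fun y => u y + c * f y + c' * g y + d) x = Δ u x + c * Δ f x + c' * Δ g x := by
  have e : (fun y => u y + c * f y + c' * g y + d) = ((u + c • f) + c' • g) + fun _ => d := by
    funext y; simp
  have hcf : ContDiffAt ℝ 2 (c • f) x := hf.const_smul c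
  have hcg : ContDiffAt ℝ 2 (c' • g) x := hg.const_smul c'
  have hconst : ContDiffAt ℝ 2 (fun _ : E => d) x := contDiffAt_const
  have h1 : ContDiffAt ℝ 2 (u + c • f) x := hu.add hcf
  have h2 : ContDiffAt ℝ 2 (u + c • f + c' • g) x := h1.add hcg
  rw [e, h2.laplacian_add hconst, h1.laplacian_add hcg,
    hu.laplacian_add hcf, laplacian_smul c hf, laplacian_smul c' hg]
  have h0 : Δ (fun _ : E => d) x = 0 := by
    simp [laplacian_eq_iteratedFDeriv_stdOrthonormalBasis, iteratedFDeriv_two_apply]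
  rw [h0]
  simp

end Vale.Agent.Lib.P100
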