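import Vale.Agent.Lib.P100.Barrier

/-!
Two nonexistence results obtained from the minimum principle on annuli with logarithmic barriers:

* in dimension two there is no nonnegative `C^2` function on the punctured plane with negative
  Laplacian;
* in dimension at least three a nonnegative function that is bounded near the origin cannot satisfy
  `Δ u ≤ -c / ‖x‖ ^ 2` on a punctured neighbourhood of the origin.
-/

open InnerProductSpace Laplacian Topology Filter

namespace Vale.Agent.Lib.P100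

variable {E : Type*} [NormedAddCommGroup E] [InnerProductSpace ℝ E] [FiniteDimensional ℝ E]

omit [FiniteDimensional ℝ E] in
/-- Regularity of `u + c * log ‖·‖² + c' * (log ‖·‖²)² + d` away from the origin. -/
lemma contDiffAt_barrier (u : E → ℝ) (c c' d : ℝ) {x : E} (hx : x ≠ 0)
    (hu : ContDiffAt ℝ 2 u x) :
    ContDiffAt ℝ 2
      (fun y => u y + c * Real.log (‖y‖ ^ 2) + c' * Real.log (‖y‖ ^ 2) ^ 2 + d) x :=
  ((hu.add (contDiffAt_const.mul (contDiffAt_logNormSq hx))).add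
    (contDiffAt_const.mul (contDiffAt_logNormSq_sq hx))).add contDiffAt_const

/-- Laplacian of `u + c * log ‖·‖² + c' * (log ‖·‖²)² + d` away from the origin. -/
lemma laplacian_barrier (u : E → ℝ) (c c' d : ℝ) {x : E} (hx : x ≠ 0)
    (hu : ContDiffAt ℝ 2 u x) :
    Δ (fun y => u y + c * Real.log (‖y‖ ^ 2) + c' * Real.log (‖y‖ ^ 2) ^ 2 + d) x
      = Δ u x + c * ((2 * (Module.finrank ℝ E : ℝ) - 4) / ‖x‖ ^ 2)
        + c' * ((8 + (4 * (Module.finrank ℝ E : ℝ) - 8) * Real.log (‖x‖ ^ 2)) / ‖x‖ ^ 2) := by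
  rw [laplacian_lincomb u (fun y : E => Real.log (‖y‖ ^ 2))
    (fun y : E => Real.log (‖y‖ ^ 2) ^ 2) c c' d x hu (contDiffAt_logNormSq hx)
    (contDiffAt_logNormSq_sq hx), laplacian_logNormSq hx, laplacian_logNormSq_sq hx]

/-- Planar comparison with the logarithm between the unit circle and the circle of radius `ρ`. -/
lemma planar_compare (hE : Module.finrank ℝ E = 2) (u : E → ℝ) (m ρ : ℝ)
    (hu2 : ∀ x ≠ 0, ContDiffAt ℝ 2 u x) (hpos : ∀ x ≠ 0, 0 ≤ u x)
    (hΔ : ∀ x ≠ 0, Δ u x < 0) (hsph : ∀ y : E, ‖y‖ = 1 → m ≤ u y)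
    (hρ : 0 < ρ) (hρ1 : ρ ≠ 1) :
    ∀ x : E, min 1 ρ ≤ ‖x‖ → ‖x‖ ≤ max 1 ρ →
      0 ≤ u x + m / Real.log (ρ ^ 2) * Real.log (‖x‖ ^ 2) + 0 * Real.log (‖x‖ ^ 2) ^ 2 + -m := by
  have hapos : 0 < min 1 ρ := lt_min one_pos hρ
  have hne : ∀ x : E, min 1 ρ ≤ ‖x‖ → x ≠ 0 := by
    intro x hx h0
    rw [h0, norm_zero] at hx
    linarith
  have hlog : Real.log (ρ ^ 2) ≠ 0 := by
    rw [Real.log_pow]
    have : Real.log ρ ≠ 0 := by
      intro h
      rcases Real.log_eq_zero.1 h with h | h | h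
      · linarith
      · exact hρ1 h
      · linarith
    simpa using this
  apply annulus_nonneg
  · intro x hx
    exact (contDiffAt_barrier u _ _ _ (hne x hx.1) (hu2 x (hne x hx.1))).continuousAt.continuousWithinAt
  · intro x hx _
    exact contDiffAt_barrier u _ _ _ (hne x hx.le) (hu2 x (hne x hx.le))
  · intro x hx _
    rw [laplacian_barrier u _ _ _ (hne x hx.le) (hu2 x (hne x hx.le)), hE]
    have := hΔ x (hne x hx.le)
    norm_num
    exact this
  · intro x hx
    rcases min_choice (1 : ℝ) ρ with h | h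
    · rw [h] at hx
      rw [hx]
      have := hsph x hx
      simp
      linarith
    · rw [h] at hx
      rw [hx]
      have hx0 : x ≠ 0 := by
        intro h0; rw [h0, norm_zero] at hx; linarith
      have := hpos x hx0
      field_simp
      linarith
  · intro x hx
    rcases max_choice (1 : ℝ) ρ with h | h
    · rw [h] at hx
      rw [hx]
      have := hsph x hx
      simp
      linarith
    · rw [h] at hx
      rw [hx]
      have hx0 : x ≠ 0 := by
        intro h0; rw [h0, norm_zero] at hx; linarith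
      have := hpos x hx0
      field_simp
      linarith

/-- In dimension two there is no nonnegative `C^2` function on the punctured plane whose
Laplacian is negative everywhere. -/
theorem planar_no_superharmonic (hE : Module.finrank ℝ E = 2) (u : E → ℝ)
    (hu2 : ∀ x ≠ 0, ContDiffAt ℝ 2 u x) (hpos : ∀ x ≠ 0, 0 ≤ u x)
    (hΔ : ∀ x ≠ 0, Δ u x < 0) : False := by
  have : Nontrivial E := Module.nontrivial_of_finrank_pos (R := ℝ) (by omega)
  have hS : IsCompact (Metric.sphere (0 : E) 1) := isCompact_sphere 0 1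
  obtain ⟨e, he⟩ := exists_norm_eq E (c := 1) zero_le_one
  have hSne : (Metric.sphere (0 : E) 1).Nonempty := ⟨e, by simp [he]⟩
  have hcont : ContinuousOn u (Metric.sphere (0 : E) 1) := by
    intro z hz
    have hz0 : z ≠ 0 := by
      intro h; rw [h] at hz; simp at hz
    exact (hu2 z hz0).continuousAt.continuousWithinAt
  obtain ⟨x0, hx0S, hx0⟩ := hS.exists_isMinOn hSne hcont
  have hx0n : ‖x0‖ = 1 := by simpa using hx0S
  have hx0ne : x0 ≠ 0 := by intro h; rw [h] at hx0n; simp at hx0n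
  have hm0 : 0 ≤ u x0 := hpos x0 hx0ne
  have hsph : ∀ y : E, ‖y‖ = 1 → u x0 ≤ u y :=
    fun y hy => isMinOn_iff.1 hx0 y (by simp [hy])
  have key : ∀ x : E, x ≠ 0 → ∀ k : ℕ, 0 ≤ u x - u x0 + u x0 / (k + 1) := by
    intro x hx k
    have hxpos : 0 < ‖x‖ := norm_pos_iff.2 hx
    by_cases h1 : ‖x‖ = 1
    · have := hsph x h1
      have h2 : 0 ≤ u x0 / ((k : ℝ) + 1) := by positivity
      linarith
    · have hρ : 0 < ‖x‖ ^ (k + 1) := by positivity
      have hρ1 : ‖x‖ ^ (k + 1) ≠ 1 := by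
        intro h
        exact h1 ((pow_eq_one_iff_of_nonneg hxpos.le (Nat.succ_ne_zero k)).1 h)
      have hmem : min 1 (‖x‖ ^ (k + 1)) ≤ ‖x‖ ∧ ‖x‖ ≤ max 1 (‖x‖ ^ (k + 1)) := by
        rcases lt_or_gt_of_ne h1 with hlt | hgt
        · exact ⟨(min_le_right _ _).trans (pow_le_of_le_one hxpos.le hlt.le (Nat.succ_ne_zero k)),
            hlt.le.trans (le_max_left _ _)⟩
        · exact ⟨(min_le_left _ _).trans hgt.le,
            (le_self_pow₀ hgt.le (Nat.succ_ne_zero k)).trans (le_max_right _ _)⟩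
      have h := planar_compare hE u (u x0) (‖x‖ ^ (k + 1)) hu2 hpos hΔ hsph hρ hρ1 x
        hmem.1 hmem.2
      have hL : Real.log (‖x‖ ^ 2) ≠ 0 := by
        rw [Real.log_pow]
        have : Real.log ‖x‖ ≠ 0 := by
          intro h
          rcases Real.log_eq_zero.1 h with h | h | h
          · linarith
          · exact h1 h
          · linarith
        simpa using this
      have e1 : Real.log ((‖x‖ ^ (k + 1)) ^ 2) = ((k : ℝ) + 1) * Real.log (‖x‖ ^ 2) := by
        rw [← pow_mul, mul_comm (k + 1) 2, pow_mul, Real.log_pow]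
        push_cast
        ring
      rw [e1] at h
      have e2 : u x0 / (((k : ℝ) + 1) * Real.log (‖x‖ ^ 2)) * Real.log (‖x‖ ^ 2)
          = u x0 / ((k : ℝ) + 1) := by
        have hk : (k : ℝ) + 1 ≠ 0 := by positivity
        field_simp
      rw [e2] at h
      linarith
  have hge : ∀ x : E, x ≠ 0 → u x0 ≤ u x := by
    intro x hx
    by_contra hlt
    have hlt' : u x < u x0 := not_le.1 hlt
    have hpos' : 0 < u x0 - u x := by linarith
    obtain ⟨k, hk⟩ := exists_nat_gt (u x0 / (u x0 - u x))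
    have h1 := key x hx k
    have h2 : u x0 / ((k : ℝ) + 1) < u x0 - u x := by
      have hk1 : (0 : ℝ) < (k : ℝ) + 1 := by positivity
      rw [div_lt_iff₀ hk1]
      have h3 : u x0 / (u x0 - u x) < (k : ℝ) + 1 := by linarith
      rw [div_lt_iff₀ hpos'] at h3
      linarith
    linarith
  have hloc : IsLocalMin u x0 := by
    filter_upwards [isOpen_ne.mem_nhds hx0ne] with z hz
    exact hge z hz
  have := laplacian_nonneg_of_isLocalMin (hu2 x0 hx0ne) hloc
  linarith [hΔ x0 hx0ne]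


/-- Comparison near the origin in dimension at least three: if `Δ u ≤ -c / ‖x‖ ^ 2` on the
punctured ball of radius `ρ ≤ e⁻¹` and `u ≥ 0`, then `u` dominates a logarithmic barrier. -/
lemma singular_compare (hE : 3 ≤ Module.finrank ℝ E) (u : E → ℝ) (ρ c : ℝ)
    (hρ : 0 < ρ) (hρ1 : ρ ≤ Real.exp (-1)) (hc : 0 < c)
    (hu2 : ∀ x ≠ 0, ContDiffAt ℝ 2 u x) (hpos : ∀ x ≠ 0, 0 ≤ u x)
    (hΔ : ∀ x, x ≠ 0 → ‖x‖ ≤ ρ → Δ u x ≤ -(c / ‖x‖ ^ 2)) :
    ∀ x : E, 0 < ‖x‖ → ‖x‖ < ρ →
      c / (4 * (Module.finrank ℝ E : ℝ) - 8) * (Real.log (ρ ^ 2) - Real.log (‖x‖ ^ 2)) ≤ u x := by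
  have hN : (3 : ℝ) ≤ (Module.finrank ℝ E : ℝ) := by exact_mod_cast hE
  set N : ℝ := (Module.finrank ℝ E : ℝ) with hNdef
  set κ : ℝ := c / (4 * N - 8) with hκdef
  have hden : 0 < 4 * N - 8 := by linarith
  have hκ : 0 < κ := div_pos hc hden
  have hlogρ : Real.log (ρ ^ 2) ≤ -2 := by
    rw [Real.log_pow]
    have : Real.log ρ ≤ -1 := by
      have := Real.log_le_log hρ hρ1
      rwa [Real.log_exp] at this
    push_cast
    linarith
  -- the comparison for every ε > 0
  have step : ∀ x : E, 0 < ‖x‖ → ‖x‖ < ρ → ∀ ε : ℝ, 0 < ε →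
      0 ≤ u x + κ * Real.log (‖x‖ ^ 2) + ε * Real.log (‖x‖ ^ 2) ^ 2
        + -(κ * Real.log (ρ ^ 2)) := by
    intro x hx0 hxρ ε hε
    set δ : ℝ := min (‖x‖ / 2) (Real.exp (-(κ / (2 * ε)))) with hδdef
    have hδpos : 0 < δ := lt_min (by positivity) (Real.exp_pos _)
    have hδx : δ ≤ ‖x‖ := (min_le_left _ _).trans (by linarith)
    have hδlog : Real.log (δ ^ 2) ≤ -(κ / ε) := by
      rw [Real.log_pow]
      have h1 : Real.log δ ≤ -(κ / (2 * ε)) := by
        have := Real.log_le_log hδpos (min_le_right (‖x‖ / 2) (Real.exp (-(κ / (2 * ε)))))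
        rwa [Real.log_exp] at this
      have h2 : κ / (2 * ε) = κ / ε / 2 := by field_simp
      push_cast
      linarith
    have hne : ∀ y : E, δ ≤ ‖y‖ → y ≠ 0 := by
      intro y hy h0
      rw [h0, norm_zero] at hy
      linarith
    have hann := annulus_nonneg (E := E)
      (w := fun y => u y + κ * Real.log (‖y‖ ^ 2) + ε * Real.log (‖y‖ ^ 2) ^ 2
        + -(κ * Real.log (ρ ^ 2))) (a := δ) (b := ρ) ?_ ?_ ?_ ?_ ?_ x hδx hxρ.le
    · exact hann
    · intro y hy
      exact (contDiffAt_barrier u _ _ _ (hne y hy.1)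
        (hu2 y (hne y hy.1))).continuousAt.continuousWithinAt
    · intro y hy _
      exact contDiffAt_barrier u _ _ _ (hne y hy.le) (hu2 y (hne y hy.le))
    · intro y hy hyρ
      have hy0 : y ≠ 0 := hne y hy.le
      have hypos : 0 < ‖y‖ ^ 2 := by positivity
      rw [laplacian_barrier u _ _ _ hy0 (hu2 y hy0)]
      have h1 := hΔ y hy0 hyρ.le
      have hLy : Real.log (‖y‖ ^ 2) ≤ -2 := by
        have h2 : ‖y‖ ^ 2 ≤ ρ ^ 2 := by
          have := norm_nonneg y
          nlinarith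
        exact (Real.log_le_log hypos h2).trans hlogρ
      have h3 : κ * ((2 * N - 4) / ‖y‖ ^ 2) = c / 2 / ‖y‖ ^ 2 := by
        rw [hκdef]
        field_simp
        ring
      have h4 : (8 + (4 * N - 8) * Real.log (‖y‖ ^ 2)) / ‖y‖ ^ 2 ≤ 0 := by
        apply div_nonpos_of_nonpos_of_nonneg _ hypos.le
        nlinarith
      have h5 : ε * ((8 + (4 * N - 8) * Real.log (‖y‖ ^ 2)) / ‖y‖ ^ 2) ≤ 0 :=
        mul_nonpos_of_nonneg_of_nonpos hε.le h4
      have h6 : 0 < c / 2 / ‖y‖ ^ 2 := by positivity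
      have h7 : c / ‖y‖ ^ 2 = 2 * (c / 2 / ‖y‖ ^ 2) := by field_simp
      rw [h3]
      linarith
    · intro y hy
      have hy0 : y ≠ 0 := hne y hy.ge
      have h1 := hpos y hy0
      rw [hy]
      have hT : κ ≤ ε * (-Real.log (δ ^ 2)) := by
        have : κ / ε ≤ -Real.log (δ ^ 2) := by linarith
        rw [div_le_iff₀ hε] at this
        linarith
      have hT0 : 0 ≤ -Real.log (δ ^ 2) := by
        have : 0 ≤ κ / ε := by positivity
        linarith
      nlinarith
    · intro y hy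
      have hy0 : y ≠ 0 := by
        intro h0; rw [h0, norm_zero] at hy; linarith
      have h1 := hpos y hy0
      rw [hy]
      have : 0 ≤ ε * Real.log (ρ ^ 2) ^ 2 := by positivity
      linarith
  intro x hx0 hxρ
  by_contra hlt
  have hlt' : u x < κ * (Real.log (ρ ^ 2) - Real.log (‖x‖ ^ 2)) := not_le.1 hlt
  set η : ℝ := κ * (Real.log (ρ ^ 2) - Real.log (‖x‖ ^ 2)) - u x with hη
  have hηpos : 0 < η := by linarith
  have hb : 0 < Real.log (‖x‖ ^ 2) ^ 2 + 1 := by positivity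
  have h := step x hx0 hxρ (η / (2 * (Real.log (‖x‖ ^ 2) ^ 2 + 1))) (by positivity)
  have h2 : η / (2 * (Real.log (‖x‖ ^ 2) ^ 2 + 1)) * Real.log (‖x‖ ^ 2) ^ 2 ≤ η / 2 := by
    rw [div_mul_eq_mul_div, div_le_iff₀ (by positivity)]
    nlinarith [sq_nonneg (Real.log (‖x‖ ^ 2))]
  linarith

/-- In dimension at least three, a nonnegative function that is bounded above on a ball around
the origin cannot satisfy `Δ u ≤ -c / ‖x‖ ^ 2` (with `c > 0`) on the punctured ball. -/
theorem singular_no_bounded (hE : 3 ≤ Module.finrank ℝ E) (u : E → ℝ) (ρ c M : ℝ)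
    (hρ : 0 < ρ) (hρ1 : ρ ≤ Real.exp (-1)) (hc : 0 < c)
    (hu2 : ∀ x ≠ 0, ContDiffAt ℝ 2 u x) (hpos : ∀ x ≠ 0, 0 ≤ u x)
    (hM : ∀ x, ‖x‖ ≤ ρ → u x ≤ M)
    (hΔ : ∀ x, x ≠ 0 → ‖x‖ ≤ ρ → Δ u x ≤ -(c / ‖x‖ ^ 2)) : False := by
  have : Nontrivial E := Module.nontrivial_of_finrank_pos (R := ℝ) (by omega)
  have hN : (3 : ℝ) ≤ (Module.finrank ℝ E : ℝ) := by exact_mod_cast hE
  have hden : 0 < 4 * (Module.finrank ℝ E : ℝ) - 8 := by linarith
  set κ : ℝ := c / (4 * (Module.finrank ℝ E : ℝ) - 8) with hκdef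
  have hκ : 0 < κ := div_pos hc hden
  set t : ℝ := (|M| + 1) / (2 * κ) with ht
  have htpos : 0 < t := by positivity
  have hr : 0 < ρ * Real.exp (-t) := by positivity
  have hrρ : ρ * Real.exp (-t) < ρ := by
    have : Real.exp (-t) < 1 := by
      have h0 : Real.exp (-t) < Real.exp 0 := Real.exp_lt_exp.2 (by linarith)
      simpa using h0
    nlinarith
  obtain ⟨x, hx⟩ := exists_norm_eq E (c := ρ * Real.exp (-t)) hr.le
  have h := singular_compare hE u ρ c hρ hρ1 hc hu2 hpos hΔ x (by rw [hx]; exact hr)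
    (by rw [hx]; exact hrρ)
  have hlog : Real.log (ρ ^ 2) - Real.log (‖x‖ ^ 2) = 2 * t := by
    have e1 : (ρ * Real.exp (-t)) ^ 2 = ρ ^ 2 * Real.exp (-(2 * t)) := by
      rw [mul_pow, ← Real.exp_nat_mul]
      congr 2
      push_cast
      ring
    rw [hx, e1, Real.log_mul (by positivity) (by positivity), Real.log_exp]
    ring
  rw [hlog] at h
  have h2 : κ * (2 * t) = |M| + 1 := by
    rw [ht]; field_simp
  have h3 := hM x (by rw [hx]; exact hrρ.le)
  have h4 := le_abs_self M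
  linarith

end Vale.Agent.Lib.P100
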