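import Vale.Agent.Lib.P100.Liouville

/-!
Consequences for the Hénon-Lane-Emden system on `EuclideanSpace ℝ (Fin n)`: one equation
`-Δ u = ‖x‖ ^ A * v x ^ p` on the punctured space is already contradictory in dimension two, and
in dimension at least three when `A ≤ -2`.
-/

open InnerProductSpace Laplacian Topology Filter

namespace Vale.Agent.Lib.P100

/-- Dimension two: a positive `u` that is `C^2` on the punctured plane cannot satisfy
`-Δ u = ‖x‖ ^ A * v x ^ p` there with `v` positive. -/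
theorem planar_equation (p A : ℝ) (u v : EuclideanSpace ℝ (Fin 2) → ℝ)
    (hu : ContDiffOn ℝ 2 u {x | x ≠ 0})
    (hupos : ∀ x, 0 < u x) (hvpos : ∀ x, 0 < v x)
    (h1 : ∀ x, x ≠ 0 → -Δ u x = ‖x‖ ^ A * v x ^ p) : False := by
  apply planar_no_superharmonic (E := EuclideanSpace ℝ (Fin 2)) (by simp) u
  · intro x hx
    exact hu.contDiffAt (isOpen_ne.mem_nhds hx)
  · intro x _
    exact (hupos x).le
  · intro x hx
    have h := h1 x hx
    have hpos : 0 < ‖x‖ ^ A * v x ^ p :=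
      mul_pos (Real.rpow_pos_of_pos (norm_pos_iff.2 hx) A) (Real.rpow_pos_of_pos (hvpos x) p)
    linarith

/-- Dimension at least three, `A ≤ -2`: a nonnegative `u`, `C^2` on the punctured space and
continuous at the origin, cannot satisfy `-Δ u = ‖x‖ ^ A * v x ^ p` near the origin when `v` is
continuous and positive at the origin. -/
theorem singular_equation (n : ℕ) (hn : 3 ≤ n) (p A : ℝ) (hp : 0 < p) (hA : A ≤ -2)
    (u v : EuclideanSpace ℝ (Fin n) → ℝ)
    (hu : ContDiffOn ℝ 2 u {x | x ≠ 0})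
    (huc : ContinuousAt u 0) (hvc : ContinuousAt v 0)
    (hupos : ∀ x, 0 < u x) (hv0 : 0 < v 0)
    (h1 : ∀ x, x ≠ 0 → -Δ u x = ‖x‖ ^ A * v x ^ p) : False := by
  have hv' : ∀ᶠ x in 𝓝 (0 : EuclideanSpace ℝ (Fin n)), v 0 / 2 < v x :=
    hvc.eventually (lt_mem_nhds (by linarith))
  have hu' : ∀ᶠ x in 𝓝 (0 : EuclideanSpace ℝ (Fin n)), u x < u 0 + 1 :=
    huc.eventually (gt_mem_nhds (by linarith))
  obtain ⟨ρ0, hρ0, hv''⟩ := Metric.eventually_nhds_iff.1 hv'
  obtain ⟨ρ1, hρ1, hu''⟩ := Metric.eventually_nhds_iff.1 hu'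
  set ρ : ℝ := min (min (ρ0 / 2) (ρ1 / 2)) (Real.exp (-1)) with hρdef
  have hρpos : 0 < ρ := lt_min (lt_min (by positivity) (by positivity)) (Real.exp_pos _)
  have hρe : ρ ≤ Real.exp (-1) := min_le_right _ _
  have hρ0' : ρ < ρ0 := by
    have : ρ ≤ ρ0 / 2 := (min_le_left _ _).trans (min_le_left _ _)
    linarith
  have hρ1' : ρ < ρ1 := by
    have : ρ ≤ ρ1 / 2 := (min_le_left _ _).trans (min_le_right _ _)
    linarith
  have he1 : Real.exp (-1) < 1 := by
    simp
  have hc : 0 < (v 0 / 2) ^ p := Real.rpow_pos_of_pos (by linarith) p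
  have hfin : 3 ≤ Module.finrank ℝ (EuclideanSpace ℝ (Fin n)) := by
    rw [finrank_euclideanSpace_fin]; exact hn
  apply singular_no_bounded (E := EuclideanSpace ℝ (Fin n)) hfin u ρ
    ((v 0 / 2) ^ p) (u 0 + 1) hρpos hρe hc
  · intro x hx
    exact hu.contDiffAt (isOpen_ne.mem_nhds hx)
  · intro x _
    exact (hupos x).le
  · intro x hx
    have : dist x 0 < ρ1 := by
      rw [dist_zero_right]; linarith
    exact (hu'' this).le
  · intro x hx hxρ
    have hxpos : 0 < ‖x‖ := norm_pos_iff.2 hx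
    have hx1 : ‖x‖ ≤ 1 := by linarith
    have h := h1 x hx
    have hvx : v 0 / 2 < v x := by
      apply hv''
      rw [dist_zero_right]; linarith
    have e1 : (‖x‖ ^ 2)⁻¹ ≤ ‖x‖ ^ A := by
      have h2 : ‖x‖ ^ (-2 : ℝ) ≤ ‖x‖ ^ A :=
        Real.rpow_le_rpow_of_exponent_ge hxpos hx1 hA
      rwa [Real.rpow_neg hxpos.le, Real.rpow_two] at h2
    have e2 : (v 0 / 2) ^ p ≤ v x ^ p :=
      Real.rpow_le_rpow (by linarith) hvx.le hp.le
    have e3 : (v 0 / 2) ^ p / ‖x‖ ^ 2 ≤ ‖x‖ ^ A * v x ^ p := by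
      rw [div_eq_mul_inv, mul_comm]
      exact mul_le_mul e1 e2 hc.le (Real.rpow_nonneg hxpos.le A)
    linarith

end Vale.Agent.Lib.P100
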