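import Vale.Agent.Lib.P100.Barrier

/-!
An explicit positive entire solution of the Lane-Emden system in dimension three at the critical
exponents `p = q = 5` (`A = B = 0`): `u = v = 3^(1/4) * (1 + ‖x‖²)^(-1/2)`.
-/

open InnerProductSpace Laplacian Topology Filter

namespace Vale.Agent.Lib.P100

/-- The profile `t ↦ a * (1 + t)^(-1/2)`. -/
noncomputable def bubbleProfile (a : ℝ) (t : ℝ) : ℝ := a * (1 + t) ^ (-(1 / 2) : ℝ)

/-- The function `x ↦ 3^(1/4) * (1 + ‖x‖²)^(-1/2)` on `ℝ³`. -/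
noncomputable def bubble (x : EuclideanSpace ℝ (Fin 3)) : ℝ :=
  bubbleProfile ((3 : ℝ) ^ (1 / 4 : ℝ)) (‖x‖ ^ 2)

lemma bubbleProfile_hasDerivAt (a t : ℝ) (ht : 0 < 1 + t) :
    HasDerivAt (bubbleProfile a) (a * (-(1 / 2) * (1 + t) ^ (-(3 / 2) : ℝ))) t := by
  have h1 : HasDerivAt (fun s : ℝ => 1 + s) 1 t := (hasDerivAt_id t).const_add 1
  have h2 := (h1.rpow_const (p := (-(1 / 2) : ℝ)) (Or.inl ht.ne')).const_mul a
  have e : (-(1 / 2) : ℝ) - 1 = -(3 / 2) := by norm_num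
  rw [e] at h2
  exact h2.congr_deriv (by ring)

lemma bubbleProfile_hasDerivAt2 (a t : ℝ) (ht : 0 < 1 + t) :
    HasDerivAt (fun s : ℝ => a * (-(1 / 2) * (1 + s) ^ (-(3 / 2) : ℝ)))
      (a * (3 / 4 * (1 + t) ^ (-(5 / 2) : ℝ))) t := by
  have h1 : HasDerivAt (fun s : ℝ => 1 + s) 1 t := (hasDerivAt_id t).const_add 1
  have h2 := ((h1.rpow_const (p := (-(3 / 2) : ℝ)) (Or.inl ht.ne')).const_mul (-(1 / 2) : ℝ)).const_mul a
  have e : (-(3 / 2) : ℝ) - 1 = -(5 / 2) := by norm_num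
  rw [e] at h2
  exact h2.congr_deriv (by ring)

lemma bubbleProfile_contDiffAt (a t : ℝ) (ht : 0 < 1 + t) :
    ContDiffAt ℝ 2 (bubbleProfile a) t := by
  have h1 : ContDiffAt ℝ 2 (fun s : ℝ => 1 + s) t := contDiffAt_const.add contDiffAt_id
  exact contDiffAt_const.mul (h1.rpow_const_of_ne ht.ne')

lemma bubble_contDiff : ContDiff ℝ 2 bubble := by
  rw [contDiff_iff_contDiffAt]
  intro x
  have ht : 0 < 1 + ‖x‖ ^ 2 := by positivity
  exact (bubbleProfile_contDiffAt _ _ ht).comp x contDiff_normSq.contDiffAt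

lemma bubble_pos (x : EuclideanSpace ℝ (Fin 3)) : 0 < bubble x := by
  have ht : 0 < 1 + ‖x‖ ^ 2 := by positivity
  unfold bubble bubbleProfile
  exact mul_pos (Real.rpow_pos_of_pos (by norm_num) _) (Real.rpow_pos_of_pos ht _)

/-- `-Δ bubble = bubble ^ 5` on `ℝ³`. -/
lemma bubble_equation (x : EuclideanSpace ℝ (Fin 3)) :
    -Δ bubble x = ‖x‖ ^ (0 : ℝ) * bubble x ^ (5 : ℝ) := by
  have ht : 0 < 1 + ‖x‖ ^ 2 := by positivity
  set a : ℝ := (3 : ℝ) ^ (1 / 4 : ℝ) with ha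
  have hapos : 0 < a := Real.rpow_pos_of_pos (by norm_num) _
  have hlap := laplacian_radial (E := EuclideanSpace ℝ (Fin 3)) (bubbleProfile a) x
    (bubbleProfile_contDiffAt a _ ht)
  have hev : deriv (bubbleProfile a) =ᶠ[𝓝 (‖x‖ ^ 2)]
      fun s => a * (-(1 / 2) * (1 + s) ^ (-(3 / 2) : ℝ)) := by
    have hopen : {s : ℝ | 0 < 1 + s} ∈ 𝓝 (‖x‖ ^ 2) :=
      (isOpen_lt continuous_const (continuous_const.add continuous_id)).mem_nhds ht
    filter_upwards [hopen] with s hs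
    exact (bubbleProfile_hasDerivAt a s hs).deriv
  rw [hev.deriv_eq, (bubbleProfile_hasDerivAt2 a _ ht).deriv,
    (bubbleProfile_hasDerivAt a _ ht).deriv, finrank_euclideanSpace_fin] at hlap
  have hbub : Δ bubble x = Δ (fun z : EuclideanSpace ℝ (Fin 3) => bubbleProfile a (‖z‖ ^ 2)) x := rfl
  rw [hbub, hlap, Real.rpow_zero, one_mul]
  -- the fifth power
  have h5 : bubble x ^ (5 : ℝ) = a ^ (5 : ℝ) * (1 + ‖x‖ ^ 2) ^ (-(5 / 2) : ℝ) := by
    show (a * (1 + ‖x‖ ^ 2) ^ (-(1 / 2) : ℝ)) ^ (5 : ℝ) = _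
    rw [Real.mul_rpow hapos.le (Real.rpow_nonneg ht.le _), ← Real.rpow_mul ht.le]
    norm_num
  have ha5 : a ^ (5 : ℝ) = 3 * a := by
    rw [ha, ← Real.rpow_mul (by norm_num)]
    have e : (1 / 4 : ℝ) * 5 = 1 + 1 / 4 := by norm_num
    rw [e, Real.rpow_add (by norm_num), Real.rpow_one]
  rw [h5, ha5]
  -- relate the powers of `1 + ‖x‖²`
  have e3 : (1 + ‖x‖ ^ 2) ^ (-(3 / 2) : ℝ) = (1 + ‖x‖ ^ 2) ^ (-(5 / 2) : ℝ) * (1 + ‖x‖ ^ 2) := by
    have : (-(3 / 2) : ℝ) = -(5 / 2) + 1 := by norm_num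
    rw [this, Real.rpow_add ht, Real.rpow_one]
  rw [e3]
  push_cast
  ring

end Vale.Agent.Lib.P100
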